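import Mathlib

namespace Vale.Agent.Results.P032.A_ProductColourings

open MeasureTheory Set

/-- Core lemma in coordinates: if the second factor `b` has countably many values and
Lebesgue measurable fibres, and no two points of the plane at distance one get the same
pair of values `(a x, b y)`, then `a` takes at least three values. -/
theorem three_values {A B : Type} [Countable B] (a : ℝ → A) (b : ℝ → B)
    (hb : ∀ j, NullMeasurableSet (b ⁻¹' {j}) (volume : Measure ℝ))
    (h : ∀ x x' y y' : ℝ, (x - x') ^ 2 + (y - y') ^ 2 = 1 → ¬ (a x = a x' ∧ b y = b y'))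
    (u v : A) : ∃ x, a x ≠ u ∧ a x ≠ v := by
  by_contra hcon
  push Not at hcon
  -- three values of a two-valued map
  have two : ∀ x1 x2 x3 : ℝ, a x1 ≠ a x3 → a x2 ≠ a x3 → a x1 = a x2 := by
    intro x1 x2 x3 h13 h23
    by_cases h3 : a x3 = u
    · have e1 : a x1 = v := hcon x1 (fun e => h13 (e.trans h3.symm))
      have e2 : a x2 = v := hcon x2 (fun e => h23 (e.trans h3.symm))
      exact e1.trans e2.symm
    · have e3 : a x3 = v := hcon x3 h3
      have e1 : a x1 = u := by
        by_contra e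
        exact h13 ((hcon x1 e).trans e3.symm)
      have e2 : a x2 = u := by
        by_contra e
        exact h23 ((hcon x2 e).trans e3.symm)
      exact e1.trans e2.symm
  -- some fibre of b has positive measure
  have hcover : (⋃ j : B, b ⁻¹' {j}) = univ := by
    ext y
    simp
  obtain ⟨j, hj⟩ : ∃ j : B, 0 < volume (b ⁻¹' {j}) := by
    by_contra hno
    push Not at hno
    have h0 : volume (⋃ j : B, b ⁻¹' {j}) = 0 :=
      measure_iUnion_null (fun j => nonpos_iff_eq_zero.1 (hno j))
    rw [hcover] at h0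
    simp at h0
  obtain ⟨t, ht_sub, ht_meas, ht_ae⟩ := (hb j).exists_measurable_subset_ae_eq
  have htpos : 0 < volume t := by
    rw [measure_congr ht_ae]
    exact hj
  have hnhds := Measure.sub_mem_nhds_zero_of_addHaar_pos volume t ht_meas htpos
  obtain ⟨ε, hε, hball⟩ := Metric.mem_nhds_iff.1 hnhds
  -- distances close to one always change the value of a
  have flip : ∀ w : ℝ, 0 ≤ w → w ≤ 1 → Real.sqrt (1 - w ^ 2) < ε → ∀ x, a (x + w) ≠ a x := by
    intro w hw0 hw1 hwε x hax
    have hs0 : 0 ≤ Real.sqrt (1 - w ^ 2) := Real.sqrt_nonneg _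
    have hs : Real.sqrt (1 - w ^ 2) ∈ Metric.ball (0 : ℝ) ε := by
      rw [Metric.mem_ball, Real.dist_eq, sub_zero, abs_of_nonneg hs0]
      exact hwε
    obtain ⟨y, hy, y', hy', hyy⟩ := Set.mem_sub.1 (hball hs)
    have hby : b y = j := ht_sub hy
    have hby' : b y' = j := ht_sub hy'
    have h1 : 0 ≤ 1 - w ^ 2 := by nlinarith
    refine h (x + w) x y y' ?_ ⟨hax, hby.trans hby'.symm⟩
    rw [hyy, Real.sq_sqrt h1]
    ring
  have hδ : 0 < min (ε ^ 2 / 2) 1 := lt_min (by positivity) one_pos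
  have flip' : ∀ w : ℝ, 1 - min (ε ^ 2 / 2) 1 < w → w ≤ 1 → ∀ x, a (x + w) ≠ a x := by
    intro w hw hw1
    have hw0 : 0 ≤ w := by
      have := min_le_right (ε ^ 2 / 2) 1
      linarith
    apply flip w hw0 hw1
    have h2 : 1 - w ^ 2 < ε ^ 2 := by
      have := min_le_left (ε ^ 2 / 2) 1
      nlinarith
    calc Real.sqrt (1 - w ^ 2) < Real.sqrt (ε ^ 2) :=
          Real.sqrt_lt_sqrt (by nlinarith) h2
      _ = ε := Real.sqrt_sq hε.le
  -- small translations are periods of a
  have per0 : ∀ w : ℝ, 0 ≤ w → w < min (ε ^ 2 / 2) 1 → ∀ x, a (x + w) = a x := by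
    intro w hw0 hw x
    have f1 : a (x + 1) ≠ a x := flip' 1 (by linarith) le_rfl x
    have f2 : a (x + w + (1 - w)) ≠ a (x + w) := flip' (1 - w) (by linarith) (by linarith) (x + w)
    have e : x + w + (1 - w) = x + 1 := by ring
    rw [e] at f2
    exact two (x + w) x (x + 1) (fun e' => f2 e'.symm) (fun e' => f1 e'.symm)
  -- hence one is a period, which it is not
  obtain ⟨n, hn⟩ := exists_nat_one_div_lt hδ
  have iter : ∀ k : ℕ, ∀ x, a (x + k * (1 / ((n : ℝ) + 1))) = a x := by
    intro k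
    induction k with
    | zero => intro x; simp
    | succ k ih =>
      intro x
      have hpos : (0 : ℝ) ≤ 1 / ((n : ℝ) + 1) := by positivity
      have := per0 (1 / ((n : ℝ) + 1)) hpos hn (x + k * (1 / ((n : ℝ) + 1)))
      rw [ih x] at this
      rw [← this]
      congr 1
      push_cast
      ring
  have hone := iter (n + 1) 0
  have hne : ((n : ℝ) + 1) ≠ 0 := by positivity
  have e1 : (0 : ℝ) + ((n + 1 : ℕ) : ℝ) * (1 / ((n : ℝ) + 1)) = 0 + 1 := by
    push_cast
    field_simp
  rw [e1] at hone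
  exact flip' 1 (by linarith) le_rfl 0 hone

/-- Coordinates of a unit distance in the Euclidean plane. -/
theorem dist_eq_one_iff (p q : EuclideanSpace ℝ (Fin 2)) :
    dist p q = 1 ↔ (p 0 - q 0) ^ 2 + (p 1 - q 1) ^ 2 = 1 := by
  rw [EuclideanSpace.dist_eq, Fin.sum_univ_two, Real.dist_eq, Real.dist_eq, sq_abs, sq_abs]
  constructor
  · intro h
    have h0 : 0 ≤ (p 0 - q 0) ^ 2 + (p 1 - q 1) ^ 2 := by positivity
    have := Real.sq_sqrt h0
    rw [h] at this
    linarith
  · intro h
    rw [h, Real.sqrt_one]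

/-- The floor colouring with period three and step `7/10`. -/
noncomputable def stripe (x : ℝ) : Fin 3 := ((⌊x * (10 / 7)⌋ : ℤ) : ZMod 3)

theorem stripe_far (x x' : ℝ) (h : stripe x = stripe x') :
    (x - x') ^ 2 < 49 / 100 ∨ 1 < (x - x') ^ 2 := by
  have hd : (3 : ℤ) ∣ ⌊x' * (10 / 7)⌋ - ⌊x * (10 / 7)⌋ := by
    have := (ZMod.intCast_eq_intCast_iff_dvd_sub (⌊x * (10 / 7)⌋) (⌊x' * (10 / 7)⌋) 3).1 h
    exact_mod_cast this
  obtain ⟨c, hc⟩ := hd
  have l1 := Int.floor_le (x * (10 / 7))
  have u1 := Int.lt_floor_add_one (x * (10 / 7))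
  have l2 := Int.floor_le (x' * (10 / 7))
  have u2 := Int.lt_floor_add_one (x' * (10 / 7))
  have hcr : (⌊x' * (10 / 7)⌋ : ℝ) - ⌊x * (10 / 7)⌋ = 3 * c := by exact_mod_cast hc
  rcases lt_trichotomy c 0 with hneg | hzero | hpos
  · right
    have : (c : ℝ) ≤ -1 := by exact_mod_cast Int.le_sub_one_of_lt hneg
    nlinarith
  · left
    subst hzero
    have e : (⌊x' * (10 / 7)⌋ : ℝ) = ⌊x * (10 / 7)⌋ := by
      have : (⌊x' * (10 / 7)⌋ : ℝ) - ⌊x * (10 / 7)⌋ = 0 := by simpa using hcr
      linarith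
    have a1 : x - x' < 7 / 10 := by linarith
    have a2 : -(7 / 10) < x - x' := by linarith
    nlinarith
  · right
    have : (1 : ℝ) ≤ c := by exact_mod_cast Int.add_one_le_of_lt hpos
    nlinarith

theorem stripe_surjective : Function.Surjective stripe := by
  intro i
  fin_cases i
  · exact ⟨0, by simp [stripe]⟩
  · exact ⟨7 / 10, by simp [stripe]⟩
  · refine ⟨14 / 10, ?_⟩
    have h2 : ⌊(14 / 10 : ℝ) * (10 / 7)⌋ = 2 := by norm_num
    simp [stripe, h2]

theorem stripe_measurable (i : Fin 3) : MeasurableSet (stripe ⁻¹' {i}) := by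
  have hm : Measurable (fun x : ℝ => ⌊x * (10 / 7)⌋) :=
    Int.measurable_floor.comp (measurable_id.mul_const _)
  have : stripe ⁻¹' {i} = (fun x : ℝ => ⌊x * (10 / 7)⌋) ⁻¹' {m : ℤ | ((m : ZMod 3) : Fin 3) = i} := by
    ext x
    exact Iff.rfl
  rw [this]
  exact hm (MeasurableSet.of_discrete)

theorem card_ge_three {A : Type} [Fintype A] (a : ℝ → A)
    (h : ∀ u v : A, ∃ x, a x ≠ u ∧ a x ≠ v) : 3 ≤ Fintype.card A := by
  obtain ⟨x1, h1, -⟩ := h (a 0) (a 0)
  obtain ⟨x2, h2, h2'⟩ := h (a 0) (a x1)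
  exact Nat.succ_le_of_lt (Fintype.two_lt_card_iff.2 ⟨a 0, a x1, a x2, fun e => h1 e.symm,
    fun e => h2 e.symm, fun e => h2' e.symm⟩)

/-- Proper colourings of the Euclidean plane of product type `(x, y) ↦ (a x, b y)`:
if the classes of `b` are Lebesgue measurable then `a` has at least three classes, and
symmetrically; so with both factors Lebesgue measurable at least nine colours are used.
Nine colours suffice. -/
theorem result :
    (∀ (A B : Type) [Fintype A] [Fintype B] (a : ℝ → A) (b : ℝ → B),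
      Function.Surjective a → Function.Surjective b →
      (∀ p q : EuclideanSpace ℝ (Fin 2), dist p q = 1 →
        (a (p 0), b (p 1)) ≠ (a (q 0), b (q 1))) →
      ((∀ j, NullMeasurableSet (b ⁻¹' {j}) (volume : Measure ℝ)) → 3 ≤ Fintype.card A) ∧
      ((∀ i, NullMeasurableSet (a ⁻¹' {i}) (volume : Measure ℝ)) → 3 ≤ Fintype.card B) ∧
      ((∀ i, NullMeasurableSet (a ⁻¹' {i}) (volume : Measure ℝ)) →
        (∀ j, NullMeasurableSet (b ⁻¹' {j}) (volume : Measure ℝ)) →
        9 ≤ Fintype.card (A × B))) ∧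
    (∃ a b : ℝ → Fin 3, Function.Surjective a ∧ Function.Surjective b ∧
      (∀ i, MeasurableSet (a ⁻¹' {i})) ∧ (∀ j, MeasurableSet (b ⁻¹' {j})) ∧
      ∀ p q : EuclideanSpace ℝ (Fin 2), dist p q = 1 →
        (a (p 0), b (p 1)) ≠ (a (q 0), b (q 1))) := by
  refine ⟨?_, ?_⟩
  · intro A B _ _ a b _ _ hproper
    have hA : (∀ j, NullMeasurableSet (b ⁻¹' {j}) (volume : Measure ℝ)) → 3 ≤ Fintype.card A := by
      intro hb
      apply card_ge_three a
      apply three_values a b hb
      intro x x' y y' hd ⟨e1, e2⟩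
      refine hproper !₂[x, y] !₂[x', y'] ?_ ?_
      · rw [dist_eq_one_iff]
        simpa using hd
      · simp [e1, e2]
    have hB : (∀ i, NullMeasurableSet (a ⁻¹' {i}) (volume : Measure ℝ)) → 3 ≤ Fintype.card B := by
      intro ha
      apply card_ge_three b
      apply three_values b a ha
      intro y y' x x' hd ⟨e1, e2⟩
      refine hproper !₂[x, y] !₂[x', y'] ?_ ?_
      · rw [dist_eq_one_iff]
        have : (x - x') ^ 2 + (y - y') ^ 2 = 1 := by linarith
        simpa using this
      · simp [e1, e2]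
    refine ⟨hA, hB, fun ha hb => ?_⟩
    rw [Fintype.card_prod]
    exact Nat.mul_le_mul (hA hb) (hB ha)
  · refine ⟨stripe, stripe, stripe_surjective, stripe_surjective, stripe_measurable,
      stripe_measurable, ?_⟩
    intro p q hd hcol
    rw [dist_eq_one_iff] at hd
    have e1 : stripe (p 0) = stripe (q 0) := (Prod.ext_iff.1 hcol).1
    have e2 : stripe (p 1) = stripe (q 1) := (Prod.ext_iff.1 hcol).2
    rcases stripe_far _ _ e1 with h1 | h1 <;> rcases stripe_far _ _ e2 with h2 | h2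
    · linarith
    · nlinarith [sq_nonneg (p 0 - q 0)]
    · nlinarith [sq_nonneg (p 1 - q 1)]
    · nlinarith

end Vale.Agent.Results.P032.A_ProductColourings
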